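import Vale.Agent.P097.H456.Fct.Defs
import Vale.Agent.P097.H288.Div
import Vale.Agent.P097.H407.Hol

set_option linter.all false

/-! # P097 / FCT / row F1 : the natural word is a scaled word on small boxes -/

open Complex Metric Filter Topology Set
open scoped ComplexConjugate
open Vale.Agent.P097.TA

namespace Vale.Agent.P097.H456.Fct

open Vale.Agent.P097.H202

variable {κ Λ : ℝ} {H Φ : ℂ → ℂ} {r e : ℝ} {α p : ℂ → ℂ → ℂ} {J : ℂ → ℂ}

theorem isOpen_WW' (a r e : ℝ) : IsOpen (WW a r e) := by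
  have h1 : IsOpen {p : ℂ × ℂ | ‖p.2‖ < e} := isOpen_lt (by fun_prop) continuous_const
  have h2 : IsOpen {p : ℂ × ℂ | |p.1.im| + a * |p.2.im| < r} :=
    isOpen_lt (by fun_prop) continuous_const
  exact h1.inter h2

theorem an_of_JD {f : ℂ → ℂ → ℂ} (hf : JD f (WW 0 r e)) {x : ℂ × ℂ} (hx : x ∈ WW 0 r e) :
    AnalyticAt ℂ (fun p : ℂ × ℂ => f p.1 p.2) x :=
  Hol.analyticOnNhd_of_differentiableOn (isOpen_WW' 0 r e) hf x hx

/-- the substitution -/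
def sub (N j : ℕ) (u : ℂ × ℂ) : ℂ × ℂ := (u.1 + j * u.2 ^ N, u.2 ^ N)

theorem sub_an (N j : ℕ) (u : ℂ × ℂ) : AnalyticAt ℂ (sub N j) u := by
  unfold sub
  have h1 : AnalyticAt ℂ (fun u : ℂ × ℂ => u.1) u := analyticAt_fst
  have h2 : AnalyticAt ℂ (fun u : ℂ × ℂ => u.2) u := analyticAt_snd
  exact (h1.add (analyticAt_const.mul (h2.pow N))).prod (h2.pow N)

theorem nat_an {f : ℂ → ℂ → ℂ} (hf : JD f (WW 0 r e)) {N j : ℕ} {u : ℂ × ℂ}
    (hu : sub N j u ∈ WW 0 r e) : AnalyticAt ℂ (nat f N j) u :=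
  AnalyticAt.comp (g := fun p : ℂ × ℂ => f p.1 p.2) (f := sub N j) (an_of_JD hf hu) (sub_an N j u)

theorem sub_zero' {N : ℕ} (hN : 1 ≤ N) (j : ℕ) (t : ℂ) : sub N j (t, 0) = (t, 0) := by
  simp [sub, zero_pow (by omega : N ≠ 0)]

theorem nat_zero {f : ℂ → ℂ → ℂ} {N : ℕ} (hN : 1 ≤ N) (j : ℕ) (t : ℂ) :
    nat f N j (t, 0) = f t 0 := by
  simp [nat, zero_pow (by omega : N ≠ 0)]

theorem real_mem (L : Lines κ Λ H Φ r e α p J) (t : ℝ) (a : ℝ) : ((t : ℂ), (0 : ℂ)) ∈ WW a r e := by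
  refine ⟨by simpa using L.he, by simpa using L.hr⟩

theorem ev_mem (L : Lines κ Λ H Φ r e α p J) {N : ℕ} (hN : 1 ≤ N) (t : ℝ) (j : ℕ) :
    ∀ᶠ u in 𝓝 ((t : ℂ), (0 : ℂ)), sub N j u ∈ WW 0 r e := by
  have hc : ContinuousAt (sub N j) ((t : ℂ), (0 : ℂ)) := (sub_an N j _).continuousAt
  apply hc.eventually_mem
  rw [sub_zero' hN]
  exact (isOpen_WW' 0 r e).mem_nhds (real_mem L t 0)

/-- derivative of `α (·, 0)` -/
theorem deriv_α (T : Ctx κ Λ H Φ r e α p J) (t : ℝ) :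
    ∃ c : ℂ, c ≠ 0 ∧ HasDerivAt (fun x => α x 0) c t := by
  obtain ⟨h, ρ, L', HH, lam, l, φ, ld⟩ := T.ld
  have L := T.ln
  have ht : |((t : ℂ)).im| < r := by simpa using L.hr
  have hρ : (t : ℂ) ∈ Str ρ := by simpa [Str] using ld.ρ0
  have hev : (fun x => α x 0) =ᶠ[𝓝 (t : ℂ)] Φ := by
    have : IsOpen {x : ℂ | |x.im| < r} := isOpen_lt (by fun_prop) continuous_const
    filter_upwards [this.mem_nhds ht] with x hx
    exact L.αzero x hx
  refine ⟨_, ?_, (ld.dΦ t hρ).congr_of_eventuallyEq hev⟩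
  have hκ : Φ t ∈ Str κ := ld.Φm' hρ
  have := ld.Λ0
  exact div_ne_zero (by exact_mod_cast this.ne') (ld.lam0 _ hκ)

/-- the scaled half difference of consecutive lines -/
theorem exists_D (T : Ctx κ Λ H Φ r e α p J) {N : ℕ} (hN : 1 ≤ N) (t : ℝ) (j : ℕ) :
    ∃ D : ℂ × ℂ → ℂ, AnalyticAt ℂ D ((t : ℂ), 0) ∧ D ((t : ℂ), 0) ≠ 0 ∧
      ∀ᶠ u in 𝓝 ((t : ℂ), (0 : ℂ)), nat α N (j + 1) u - nat α N j u = 2 * u.2 ^ N * D u := by
  have L := T.ln
  obtain ⟨c, hc, hd⟩ := deriv_α T t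
  have h1 : ∀ i : ℕ, AnalyticAt ℂ (nat α 1 i) ((t : ℂ), 0) := fun i =>
    nat_an L.jα (by rw [sub_zero' le_rfl]; exact real_mem L t 0)
  have hF : AnalyticAt ℂ (fun u => (nat α 1 (j + 1) u - nat α 1 j u) / 2) ((t : ℂ), 0) :=
    ((h1 (j + 1)).sub (h1 j)).div_const
  obtain ⟨Q, hQ, hQ1, hQ2⟩ := H288.exists_div (F := fun u : ℂ × ℂ =>
    (nat α 1 (j + 1) u - nat α 1 j u) / 2) hF (Eventually.of_forall fun x => by
      simp only [nat_zero le_rfl, sub_self, zero_div])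
  have hA := an_of_JD L.jα (real_mem L t 0)
  have hfd : ∀ i : ℕ, HasDerivAt (fun w : ℂ => nat α 1 i ((t : ℂ), w))
      ((fderiv ℂ (fun p : ℂ × ℂ => α p.1 p.2) ((t : ℂ), 0)) ((i : ℂ), 1)) 0 := by
    intro i
    have h2 : HasDerivAt (fun w : ℂ => ((t : ℂ) + i * w, w)) ((i : ℂ), 1) 0 := by
      have := ((hasDerivAt_id (0 : ℂ)).const_mul (i : ℂ)).const_add (t : ℂ)
      simpa using this.prodMk (hasDerivAt_id (0 : ℂ))
    have h3 : HasFDerivAt (fun p : ℂ × ℂ => α p.1 p.2)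
        (fderiv ℂ (fun p : ℂ × ℂ => α p.1 p.2) ((t : ℂ), 0)) ((fun w : ℂ => ((t : ℂ) + i * w, w)) 0) := by
      simpa using hA.differentiableAt.hasFDerivAt
    have h4 := HasFDerivAt.comp_hasDerivAt (f := fun w : ℂ => ((t : ℂ) + i * w, w)) (0 : ℂ) h3 h2
    refine h4.congr_of_eventuallyEq (Eventually.of_forall fun w => ?_)
    simp [nat]
  have hc' : (fderiv ℂ (fun p : ℂ × ℂ => α p.1 p.2) ((t : ℂ), 0)) (1, 0) = c := by
    have h2 : HasDerivAt (fun x : ℂ => (x, (0 : ℂ))) ((1 : ℂ), 0) (t : ℂ) :=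
      (hasDerivAt_id (t : ℂ)).prodMk (hasDerivAt_const (t : ℂ) (0 : ℂ))
    have h4 := hA.differentiableAt.hasFDerivAt.comp_hasDerivAt (t : ℂ) h2
    exact h4.unique hd
  have hQ0 : Q ((t : ℂ), 0) = c / 2 := by
    rw [hQ2.self_of_nhds]
    have h2 : HasDerivAt (fun w : ℂ => ((t : ℂ), w)) ((0 : ℂ), 1) 0 :=
      (hasDerivAt_const (0 : ℂ) (t : ℂ)).prodMk (hasDerivAt_id (0 : ℂ))
    have h5 := hF.differentiableAt.hasFDerivAt.comp_hasDerivAt (0 : ℂ) h2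
    have h6 := ((hfd (j + 1)).sub (hfd j)).div_const 2
    have h7 := h5.unique h6
    rw [h7, ← map_sub, ← hc']
    congr 1
    congr 1
    ext
    · simp
    · simp
  refine ⟨fun u => Q (u.1, u.2 ^ N), ?_, ?_, ?_⟩
  · have h8 : AnalyticAt ℂ (fun u : ℂ × ℂ => (u.1, u.2 ^ N)) ((t : ℂ), 0) :=
      analyticAt_fst.prod (analyticAt_snd.pow N)
    refine AnalyticAt.comp (g := Q) (f := fun u : ℂ × ℂ => (u.1, u.2 ^ N)) ?_ h8
    simpa [zero_pow (by omega : N ≠ 0)] using hQ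
  · simp only [zero_pow (by omega : N ≠ 0)]
    rw [hQ0]
    exact div_ne_zero hc two_ne_zero
  · have h8 : ContinuousAt (fun u : ℂ × ℂ => (u.1, u.2 ^ N)) ((t : ℂ), 0) := by fun_prop
    have h9 : Tendsto (fun u : ℂ × ℂ => (u.1, u.2 ^ N)) (𝓝 ((t : ℂ), 0)) (𝓝 ((t : ℂ), 0)) := by
      have := h8.tendsto
      simpa [zero_pow (by omega : N ≠ 0)] using this
    filter_upwards [h9.eventually hQ1] with u hu
    simp only [smul_eq_mul, nat, pow_one] at hu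
    simp only [nat]
    linear_combination 2 * hu

/-- the letter -/
theorem nat_let (L : Lines κ Λ H Φ r e α p J) {N : ℕ} (hN : 1 ≤ N) (t : ℝ) (j : ℕ) :
    ∀ᶠ u in 𝓝 ((t : ℂ), (0 : ℂ)), Let H (nat α N j u) (nat p N j u) (nat α N (j + 1) u)
      (nat p N (j + 1) u) := by
  have hc : ContinuousAt (fun u : ℂ × ℂ => (u.1 + j * u.2 ^ N + u.2 ^ N / 2, u.2 ^ N))
      ((t : ℂ), (0 : ℂ)) := by fun_prop
  have hm : ∀ᶠ u : ℂ × ℂ in 𝓝 ((t : ℂ), (0 : ℂ)),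
      ((u.1 + j * u.2 ^ N + u.2 ^ N / 2, u.2 ^ N) : ℂ × ℂ) ∈ WW (1 / 2) r e := by
    apply hc.eventually_mem
    have : ((t : ℂ) + j * (0 : ℂ) ^ N + (0 : ℂ) ^ N / 2, (0 : ℂ) ^ N) = ((t : ℂ), (0 : ℂ)) := by
      simp [zero_pow (by omega : N ≠ 0)]
    rw [this]
    exact (isOpen_WW' _ r e).mem_nhds (real_mem L t _)
  filter_upwards [hm] with u hu
  have h1 := L.sum _ _ hu
  have h2 := L.diff _ _ hu
  have e1 : u.1 + j * u.2 ^ N + u.2 ^ N / 2 + u.2 ^ N / 2 = u.1 + (j + 1 : ℕ) * u.2 ^ N := by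
    push_cast; ring
  have e2 : u.1 + j * u.2 ^ N + u.2 ^ N / 2 - u.2 ^ N / 2 = u.1 + j * u.2 ^ N := by ring
  rw [e1, e2] at h1 h2
  simp only [Let, nat]
  rw [add_comm (α (u.1 + j * u.2 ^ N) (u.2 ^ N))]
  constructor
  · linear_combination (1 / 2) * h1 - (1 / 2) * h2
  · linear_combination (1 / 2) * h1 + (1 / 2) * h2

theorem curv_ne (T : Ctx κ Λ H Φ r e α p J) {z : ℂ} (hz : z ∈ Str κ) :
    H z + deriv (deriv H) z ≠ 0 := by
  obtain ⟨h, ρ, L', HH, lam, l, φ, ld⟩ := T.ld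
  rw [← ld.lam3 z hz]
  exact pow_ne_zero 3 (ld.lam0 z hz)

theorem H_an (T : Ctx κ Λ H Φ r e α p J) {z : ℂ} (hz : z ∈ Str κ) : AnalyticAt ℂ H z := by
  obtain ⟨h, ρ, L', HH, lam, l, φ, ld⟩ := T.ld
  exact ld.dH.analyticAt ((isOpen_Str κ).mem_nhds hz)

theorem κ_pos (T : Ctx κ Λ H Φ r e α p J) : 0 < κ := by
  obtain ⟨h, ρ, L', HH, lam, l, φ, ld⟩ := T.ld
  exact ld.κ0

theorem ev_mid (T : Ctx κ Λ H Φ r e α p J) {N : ℕ} (hN : 1 ≤ N) (t : ℝ) (i j : ℕ) :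
    ∀ᶠ u in 𝓝 ((t : ℂ), (0 : ℂ)), mid (nat α N i) (nat α N j) u ∈ Str κ := by
  have L := T.ln
  have hκ := κ_pos T
  filter_upwards [ev_mem L hN t i, ev_mem L hN t j] with u h1 h2
  have h3 := L.mem _ _ h1
  have h4 := L.mem _ _ h2
  simp only [Str, mem_setOf_eq, mid, nat] at h3 h4 ⊢
  have : (((α (u.1 + i * u.2 ^ N) (u.2 ^ N) + α (u.1 + j * u.2 ^ N) (u.2 ^ N)) / 2 : ℂ)).im =
      ((α (u.1 + i * u.2 ^ N) (u.2 ^ N)).im + (α (u.1 + j * u.2 ^ N) (u.2 ^ N)).im) / 2 := by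
    have e0 : ∀ z : ℂ, (z / 2).im = z.im / 2 := fun z => by
      simpa using Complex.div_ofReal_im z 2
    rw [e0, add_im]
  rw [this]
  rw [abs_lt] at *
  constructor <;> linarith [h3.1, h3.2, h4.1, h4.2]

/-- derivative in `t` of the vertices -/
theorem ev_vt (T : Ctx κ Λ H Φ r e α p J) {N : ℕ} (hN : 1 ≤ N) (t : ℝ) (i j : ℕ) :
    ∀ᶠ u in 𝓝 ((t : ℂ), (0 : ℂ)),
      deriv (fun x => mid (nat α N i) (nat α N j) (x, u.2)) u.1 ≠ 0 := by
  have L := T.ln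
  have h1 : ∀ i : ℕ, AnalyticAt ℂ (nat α N i) ((t : ℂ), 0) := fun i =>
    nat_an L.jα (by rw [sub_zero' hN]; exact real_mem L t 0)
  have hm : AnalyticAt ℂ (mid (nat α N i) (nat α N j)) ((t : ℂ), 0) :=
    ((h1 i).add (h1 j)).div_const
  have h2 : ∀ᶠ u in 𝓝 ((t : ℂ), (0 : ℂ)), deriv (fun x => mid (nat α N i) (nat α N j) (x, u.2)) u.1 =
      fderiv ℂ (mid (nat α N i) (nat α N j)) u (1, 0) := by
    filter_upwards [hm.eventually_analyticAt] with u hu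
    have h3 : HasDerivAt (fun x : ℂ => (x, u.2)) ((1 : ℂ), 0) u.1 :=
      (hasDerivAt_id u.1).prodMk (hasDerivAt_const u.1 u.2)
    exact (hu.differentiableAt.hasFDerivAt.comp_hasDerivAt u.1 h3).deriv
  have h4 : ContinuousAt (fun u => fderiv ℂ (mid (nat α N i) (nat α N j)) u (1, 0))
      ((t : ℂ), (0 : ℂ)) := (hm.fderiv.continuousAt).clm_apply continuousAt_const
  obtain ⟨c, hc, hd⟩ := deriv_α T t
  have h5 : fderiv ℂ (mid (nat α N i) (nat α N j)) ((t : ℂ), 0) (1, 0) = c := by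
    rw [← h2.self_of_nhds]
    have : (fun x => mid (nat α N i) (nat α N j) (x, (0 : ℂ))) = fun x => α x 0 := by
      funext x
      simp only [mid, nat_zero hN]
      ring
    rw [this]
    exact hd.deriv
  have h6 : ∀ᶠ u in 𝓝 ((t : ℂ), (0 : ℂ)),
      fderiv ℂ (mid (nat α N i) (nat α N j)) u (1, 0) ≠ 0 :=
    h4.eventually_ne (by rw [h5]; exact hc)
  filter_upwards [h2, h6] with u a b
  rwa [a]

theorem sin_ne {z : ℂ} (h0 : z ≠ 0) (h1 : ‖z‖ < 1) : Complex.sin z ≠ 0 := by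
  intro h
  rw [Complex.sin_eq_zero_iff] at h
  obtain ⟨k, hk⟩ := h
  have hk0 : k ≠ 0 := by rintro rfl; simp at hk; exact h0 hk
  have h2 : (1 : ℝ) ≤ |(k : ℝ)| := by exact_mod_cast Int.one_le_abs hk0
  have h3 : ‖z‖ = |(k : ℝ)| * Real.pi := by
    rw [hk, norm_mul]
    simp [abs_of_pos Real.pi_pos]
  have := Real.pi_gt_three
  nlinarith

/-- everything holds near `(t, 0)` -/
theorem ev_all (T : Ctx κ Λ H Φ r e α p J) {N : ℕ} (hN : 1 ≤ N) (n : ℕ) (t : ℝ) :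
    ∃ r0 > 0, ∀ r1, 0 < r1 → r1 ≤ r0 → NBox H r e α p N n t r1 := by
  have L := T.ln
  choose D hD hD0 hD1 using exists_D T hN t
  have hsin : ∀ j, ∀ᶠ u in 𝓝 ((t : ℂ), (0 : ℂ)), u.2 ≠ 0 →
      Complex.sin ((nat α N (j + 1) u - nat α N j u) / 2) ≠ 0 := by
    intro j
    have h1 : ContinuousAt (fun u : ℂ × ℂ => ‖u.2 ^ N * D j u‖) ((t : ℂ), (0 : ℂ)) := by
      have := (hD j).continuousAt
      fun_prop
    have h2 : ∀ᶠ u in 𝓝 ((t : ℂ), (0 : ℂ)), ‖u.2 ^ N * D j u‖ < 1 := by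
      apply h1.eventually_lt_const
      simp [zero_pow (by omega : N ≠ 0)]
    filter_upwards [h2, hD1 j, (hD j).continuousAt.eventually_ne (hD0 j)] with u a b c hu
    rw [b]
    have : 2 * u.2 ^ N * D j u / 2 = u.2 ^ N * D j u := by ring
    rw [this]
    exact sin_ne (mul_ne_zero (pow_ne_zero _ hu) c) a
  have key : ∀ᶠ u in 𝓝 ((t : ℂ), (0 : ℂ)), (∀ j ∈ Finset.range (n + 1), sub N j u ∈ WW 0 r e) ∧
      ∀ j ∈ Finset.range n, AnalyticAt ℂ (D j) u ∧ D j u ≠ 0 ∧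
        nat α N (j + 1) u - nat α N j u = 2 * u.2 ^ N * D j u ∧
        (u.2 ≠ 0 → Complex.sin ((nat α N (j + 1) u - nat α N j u) / 2) ≠ 0) ∧
        mid (nat α N j) (nat α N (j + 1)) u ∈ Str κ ∧
        deriv (fun x => mid (nat α N j) (nat α N (j + 1)) (x, u.2)) u.1 ≠ 0 ∧
        Let H (nat α N j u) (nat p N j u) (nat α N (j + 1) u) (nat p N (j + 1) u) := by
    refine Eventually.and ?_ ?_
    · rw [Filter.eventually_all_finset]
      exact fun j _ => ev_mem L hN t j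
    · rw [Filter.eventually_all_finset]
      intro j _
      filter_upwards [(hD j).eventually_analyticAt, (hD j).continuousAt.eventually_ne (hD0 j), hD1 j,
        hsin j, ev_mid T hN t j (j + 1), ev_vt T hN t j (j + 1), nat_let L hN t j] with u a b c d f g h
      exact ⟨a, b, c, d, f, g, h⟩
  obtain ⟨r0, hr0, hb⟩ := Metric.eventually_nhds_iff_ball.1 key
  refine ⟨r0, hr0, fun r1 h1 h2 => ?_⟩
  have hB : ∀ u ∈ Box (t : ℂ) r1, u ∈ ball ((t : ℂ), (0 : ℂ)) r0 := by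
    intro u hu
    have hu1 : dist u.1 (t : ℂ) < r1 := hu.1
    have hu2 : dist u.2 (0 : ℂ) < r1 := hu.2
    rw [mem_ball, Prod.dist_eq]
    exact max_lt (hu1.trans_le h2) (hu2.trans_le h2)
  have a1 : ∀ u ∈ Box (t : ℂ) r1, ∀ j ≤ n, sub N j u ∈ WW 0 r e := fun u hu j hj =>
    (hb u (hB u hu)).1 j (Finset.mem_range.2 (by omega))
  have a2 := fun u (hu : u ∈ Box (t : ℂ) r1) j (hj : j < n) =>
    (hb u (hB u hu)).2 j (Finset.mem_range.2 hj)
  exact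
    { pos := h1
      N1 := hN
      mem := a1
      sw :=
        { aA := fun j hj u hu => nat_an L.jα (a1 u hu j hj)
          qA := fun j hj u hu => nat_an L.jp (a1 u hu j hj)
          mA := fun j hj u hu => H_an T (a2 u hu j hj).2.2.2.2.1
          lt := fun j hj u hu => (a2 u hu j hj).2.2.2.2.2.2
          kind := fun j hj => Or.inr ⟨0, D j, fun u hu => (a2 u hu j hj).1,
            fun u hu => (a2 u hu j hj).2.1, fun u hu => by
              rw [(a2 u hu j hj).2.2.1]; push_cast; ring⟩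
          sn := fun j hj u hu => (a2 u hu j hj).2.2.2.1
          vt := fun j hj u hu => (a2 u hu j hj).2.2.2.2.2.1
          curv := fun j hj u hu => curv_ne T (a2 u hu j hj).2.2.2.2.1 } }

theorem f1 : F1 := fun T N n hN t0 => ev_all T hN n t0

end Vale.Agent.P097.H456.Fct
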