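import Mathlib
import Vale.Agent.P097.H202.Lines2

set_option linter.all false

/-!
# P097 / block (C) : the finite chain theorem FCT, definitions and rows

Lines are pairs `(a, q)` (normal angle, support number).  All functions of two variables live on
`ℂ × ℂ`, coordinates `u = (t, s)`, rotation number `w = s ^ N` (`N = 1` except in the star rows).
-/

open Complex Metric Filter Topology Set
open scoped ComplexConjugate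
open Vale.Agent.P097.TA

namespace Vale.Agent.P097.H456.Fct

open Vale.Agent.P097.H202

noncomputable section

/-! ### letters, words -/

/-- the reflection `(a, q) → (a', q')` at the mirror with support function `G` -/
def Let (G : ℂ → ℂ) (a q a' q' : ℂ) : Prop :=
  q = G ((a + a') / 2) * cos ((a' - a) / 2) - deriv G ((a + a') / 2) * sin ((a' - a) / 2) ∧
  q' = G ((a + a') / 2) * cos ((a' - a) / 2) + deriv G ((a + a') / 2) * sin ((a' - a) / 2)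

/-- normal angle of the vertex between the lines `a`, `a'` -/
def mid (a a' : ℂ × ℂ → ℂ) (u : ℂ × ℂ) : ℂ := (a u + a' u) / 2

/-- a word of `n` letters: lines `(a j, q j)`, `j ≤ n`, mirrors `M j`, `j < n` -/
structure Word (U : Set (ℂ × ℂ)) (n : ℕ) (M : ℕ → ℂ → ℂ) (a q : ℕ → ℂ × ℂ → ℂ) : Prop where
  aA : ∀ j ≤ n, AnalyticOnNhd ℂ (a j) U
  qA : ∀ j ≤ n, AnalyticOnNhd ℂ (q j) U
  mA : ∀ j < n, ∀ u ∈ U, AnalyticAt ℂ (M j) (mid (a j) (a (j + 1)) u)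
  lt : ∀ j < n, ∀ u ∈ U, Let (M j) (a j u) (q j u) (a (j + 1) u) (q (j + 1) u)

/-- glancing letter: `d = π k + w D`, `D ≠ 0`, `w = s ^ N` -/
def Gl (U : Set (ℂ × ℂ)) (N : ℕ) (a a' : ℂ × ℂ → ℂ) : Prop :=
  ∃ (k : ℤ) (D : ℂ × ℂ → ℂ), AnalyticOnNhd ℂ D U ∧ (∀ u ∈ U, D u ≠ 0) ∧
    ∀ u ∈ U, a' u - a u = 2 * Real.pi * k + 2 * u.2 ^ N * D u

/-- transversal letter: `sin d ≠ 0` -/
def Tv (U : Set (ℂ × ℂ)) (a a' : ℂ × ℂ → ℂ) : Prop := ∀ u ∈ U, sin ((a' u - a u) / 2) ≠ 0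

/-- a scaled word: every letter is transversal or glancing, the vertices move, curvature finite -/
structure SWord (U : Set (ℂ × ℂ)) (N n : ℕ) (M : ℕ → ℂ → ℂ) (a q : ℕ → ℂ × ℂ → ℂ) : Prop
    extends Word U n M a q where
  kind : ∀ j < n, Tv U (a j) (a (j + 1)) ∨ Gl U N (a j) (a (j + 1))
  sn : ∀ j < n, ∀ u ∈ U, u.2 ≠ 0 → sin ((a (j + 1) u - a j u) / 2) ≠ 0
  vt : ∀ j < n, ∀ u ∈ U, deriv (fun t => mid (a j) (a (j + 1)) (t, u.2)) u.1 ≠ 0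
  curv : ∀ j < n, ∀ u ∈ U, M j (mid (a j) (a (j + 1)) u) +
    deriv (deriv (M j)) (mid (a j) (a (j + 1)) u) ≠ 0

/-- box around `(t1, 0)` -/
def Box (t1 : ℂ) (r1 : ℝ) : Set (ℂ × ℂ) := ball t1 r1 ×ˢ ball 0 r1

/-! ### the natural word -/

/-- the data of a table near the boundary -/
structure Ctx (κ Λ : ℝ) (H Φ : ℂ → ℂ) (r e : ℝ) (α p : ℂ → ℂ → ℂ) (J : ℂ → ℂ) : Prop where
  ld : ∃ (h : ℝ → ℝ) (ρ L : ℝ) (HH lam : ℂ → ℂ) (l φ : ℝ → ℝ), LD h κ ρ Λ L H HH lam Φ l φ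
  ln : Lines κ Λ H Φ r e α p J

/-- the line (or support number) number `j` of the natural word, in the variables `(t, s)` -/
def nat (f : ℂ → ℂ → ℂ) (N j : ℕ) (u : ℂ × ℂ) : ℂ := f (u.1 + j * u.2 ^ N) (u.2 ^ N)

/-- the natural word of `n` letters is defined on the box, and is a scaled word there -/
structure NBox (H : ℂ → ℂ) (r e : ℝ) (α p : ℂ → ℂ → ℂ) (N n : ℕ) (t1 : ℂ) (r1 : ℝ) : Prop where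
  pos : 0 < r1
  N1 : 1 ≤ N
  mem : ∀ u ∈ Box t1 r1, ∀ j ≤ n, (u.1 + j * u.2 ^ N, u.2 ^ N) ∈ WW 0 r e
  sw : SWord (Box t1 r1) N n (fun _ => H) (nat α N) (nat p N)

/-! ### algebraicity of the table -/

/-- the algebraic relation `P (e^{iz}, G, G', …, G^{(m)}) = 0` at `z` -/
def Rel (m : ℕ) (P : MvPolynomial (Fin (m + 2)) ℂ) (G : ℂ → ℂ) (z : ℂ) : Prop :=
  MvPolynomial.eval (Fin.cons (exp (I * z)) fun i : Fin (m + 1) => iteratedDeriv i G z) P = 0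

/-- the support function is algebraic over `ℂ(e^{iz})` -/
def HAlg (κ : ℝ) (H : ℂ → ℂ) : Prop :=
  ∃ P : MvPolynomial (Fin 2) ℂ, P ≠ 0 ∧ ∀ z ∈ Str κ, Rel 0 P H z

/-- the support function satisfies an algebraic ODE over `ℂ(e^{iz})` -/
def HFin (κ : ℝ) (H : ℂ → ℂ) : Prop :=
  ∃ (m : ℕ) (P : MvPolynomial (Fin (m + 2)) ℂ), P ≠ 0 ∧ ∀ z ∈ Str κ, Rel m P H z

/-! ### the base field -/

structure Dom (Ω : Set (ℂ × ℂ)) : Prop where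
  op : IsOpen Ω
  pc : IsPreconnected Ω
  per : ∀ u : ℂ × ℂ, u ∈ Ω ↔ (u.1 + 1, u.2) ∈ Ω
  re : ∀ t : ℝ, ((t : ℂ), (0 : ℂ)) ∈ Ω

/-- analytic and 1-periodic in `t` on `Ω` -/
def PerAn (Ω : Set (ℂ × ℂ)) (f : ℂ × ℂ → ℂ) : Prop :=
  AnalyticOnNhd ℂ f Ω ∧ ∀ u ∈ Ω, f (u.1 + 1, u.2) = f u

/-- `f` (given near the real line) is a quotient of periodic analytic functions on `Ω` -/
def QuoOn (Ω : Set (ℂ × ℂ)) (f : ℂ × ℂ → ℂ) : Prop :=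
  ∃ F G : ℂ × ℂ → ℂ, PerAn Ω F ∧ PerAn Ω G ∧ (∃ u ∈ Ω, G u ≠ 0) ∧
    ∀ t : ℝ, ∀ᶠ u in 𝓝 ((t : ℂ), (0 : ℂ)), G u * f u = F u

/-- `f` (given near the real line) is algebraic over the periodic analytic functions on `Ω` -/
def AlgOn (Ω : Set (ℂ × ℂ)) (f : ℂ × ℂ → ℂ) : Prop :=
  ∃ (m : ℕ) (c : ℕ → ℂ × ℂ → ℂ), (∀ i, PerAn Ω (c i)) ∧ (∃ i ≤ m, ∃ u ∈ Ω, c i u ≠ 0) ∧
    ∀ t : ℝ, ∀ᶠ u in 𝓝 ((t : ℂ), (0 : ℂ)), ∑ i ∈ Finset.range (m + 1), c i u * f u ^ i = 0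

/-- the two outer lines of the natural word extend to `Ω` -/
structure Outer (Ω : Set (ℂ × ℂ)) (α p : ℂ → ℂ → ℂ) (n : ℕ) (a0 q0 an qn : ℂ × ℂ → ℂ) : Prop where
  ha0 : AnalyticOnNhd ℂ a0 Ω
  hq0 : AnalyticOnNhd ℂ q0 Ω
  han : AnalyticOnNhd ℂ an Ω
  hqn : AnalyticOnNhd ℂ qn Ω
  eq : ∀ t : ℝ, ∀ᶠ u in 𝓝 ((t : ℂ), (0 : ℂ)), a0 u = nat α 1 0 u ∧ q0 u = nat p 1 0 u ∧
    an u = nat α 1 n u ∧ qn u = nat p 1 n u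

/-! ### deformations -/

/-- deformation of a word with the base line `(a 0, q 0)` fixed: mirrors `G j (z, ε)`, analytic near
all vertices of the word over `U`; lines `(A j, Q j)`, functions of `(u, ε)` near `(u2, 0)` -/
structure Def (U : Set (ℂ × ℂ)) (n : ℕ) (M : ℕ → ℂ → ℂ) (a q : ℕ → ℂ × ℂ → ℂ)
    (G : ℕ → ℂ × ℂ → ℂ) (u2 : ℂ × ℂ) (A Q : ℕ → (ℂ × ℂ) × ℂ → ℂ) : Prop where
  mem : u2 ∈ U
  w0 : u2.2 ≠ 0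
  gA : ∀ j < n, ∀ u ∈ U, AnalyticAt ℂ (G j) (mid (a j) (a (j + 1)) u, 0)
  g0 : ∀ j < n, ∀ u ∈ U, ∀ᶠ z in 𝓝 (mid (a j) (a (j + 1)) u), G j (z, 0) = M j z
  AA : ∀ j ≤ n, AnalyticAt ℂ (A j) (u2, 0)
  QA : ∀ j ≤ n, AnalyticAt ℂ (Q j) (u2, 0)
  A0 : ∀ j ≤ n, A j (u2, 0) = a j u2
  bs : ∀ᶠ v in 𝓝 (u2, (0 : ℂ)), A 0 v = a 0 v.1 ∧ Q 0 v = q 0 v.1
  lt : ∀ j < n, ∀ᶠ v in 𝓝 (u2, (0 : ℂ)),
    Let (fun z => G j (z, v.2)) (A j v) (Q j v) (A (j + 1) v) (Q (j + 1) v)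

/-- displacement function of the deformed mirror -/
def disp (G : ℂ × ℂ → ℂ) (z : ℂ) : ℂ := deriv (fun ε => G (z, ε)) 0

/-! ### the rows -/

/-- F1 : the natural word is a scaled word on small boxes -/
def F1 : Prop := ∀ {κ Λ : ℝ} {H Φ : ℂ → ℂ} {r e : ℝ} {α p : ℂ → ℂ → ℂ} {J : ℂ → ℂ},
  Ctx κ Λ H Φ r e α p J → ∀ N n : ℕ, 1 ≤ N → ∀ t0 : ℝ,
  ∃ r0 > 0, ∀ r1, 0 < r1 → r1 ≤ r0 → NBox H r e α p N n t0 r1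

/-- F2b : if the inner data are not all algebraic over the outer field, there is a non trivial
deformation of the natural word with both outer lines fixed -/
def F2b : Prop := ∀ {κ Λ : ℝ} {H Φ : ℂ → ℂ} {r e : ℝ} {α p : ℂ → ℂ → ℂ} {J : ℂ → ℂ},
  Ctx κ Λ H Φ r e α p J → ∀ {n : ℕ} {Ω : Set (ℂ × ℂ)} {a0 q0 an qn : ℂ × ℂ → ℂ},
  Dom Ω → Outer Ω α p n a0 q0 an qn →
  ¬ (∀ j ≤ n, AlgOn Ω (fun u => exp (I * nat α 1 j u)) ∧ AlgOn Ω (nat p 1 j)) →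
  ∃ (t1 : ℝ) (r1 : ℝ) (u2 : ℂ × ℂ) (G : ℕ → ℂ × ℂ → ℂ) (A Q : ℕ → (ℂ × ℂ) × ℂ → ℂ),
    NBox H r e α p 1 n t1 r1 ∧
    Def (Box t1 r1) n (fun _ => H) (nat α 1) (nat p 1) G u2 A Q ∧
    (∀ᶠ v in 𝓝 (u2, (0 : ℂ)), A n v = nat α 1 n v.1 ∧ Q n v = nat p 1 n v.1) ∧
    ∃ j < n, ¬ ∀ᶠ z in 𝓝 (α t1 0), disp (G j) z = 0

/-- F2c : such a deformation does not exist (glancing scale) -/
def F2c : Prop := ∀ {κ Λ : ℝ} {H Φ : ℂ → ℂ} {r e : ℝ} {α p : ℂ → ℂ → ℂ} {J : ℂ → ℂ},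
  Ctx κ Λ H Φ r e α p J → ∀ {n : ℕ} {t1 : ℝ} {r1 : ℝ} {u2 : ℂ × ℂ} {G : ℕ → ℂ × ℂ → ℂ}
    {A Q : ℕ → (ℂ × ℂ) × ℂ → ℂ},
    NBox H r e α p 1 n t1 r1 →
    Def (Box t1 r1) n (fun _ => H) (nat α 1) (nat p 1) G u2 A Q →
    (∀ᶠ v in 𝓝 (u2, (0 : ℂ)), A n v = nat α 1 n v.1 ∧ Q n v = nat p 1 n v.1) →
    ∀ j < n, ∀ᶠ z in 𝓝 (α t1 0), disp (G j) z = 0

/-- F2 : ALG+ -/
def F2 : Prop := ∀ {κ Λ : ℝ} {H Φ : ℂ → ℂ} {r e : ℝ} {α p : ℂ → ℂ → ℂ} {J : ℂ → ℂ},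
  Ctx κ Λ H Φ r e α p J → ∀ {n : ℕ} {Ω : Set (ℂ × ℂ)} {a0 q0 an qn : ℂ × ℂ → ℂ},
  Dom Ω → Outer Ω α p n a0 q0 an qn →
  ∀ j ≤ n, AlgOn Ω (fun u => exp (I * nat α 1 j u)) ∧ AlgOn Ω (nat p 1 j)

theorem F2_of (hb : F2b) (hc : F2c) : F2 := by
  intro κ Λ H Φ r e α p J T n Ω a0 q0 an qn hΩ hO
  by_contra hne
  obtain ⟨t1, r1, u2, G, A, Q, nb, D, cl, j, hj, hg⟩ := hb T hΩ hO hne
  exact hg (hc T nb D cl j hj)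

/-- every algebraic relation of `H` holds for `G` at `z` -/
def Tr (κ : ℝ) (H G : ℂ → ℂ) (z0 : ℂ) : Prop :=
  ∀ (m : ℕ) (P : MvPolynomial (Fin (m + 2)) ℂ), (∀ z ∈ Str κ, Rel m P H z) →
    ∀ᶠ z in 𝓝 z0, Rel m P G z

/-- the star word: same outer lines as the natural word, the mirrors satisfy all the algebraic
relations of `H`, at least one transversal letter -/
structure Star (κ : ℝ) (H : ℂ → ℂ) (α p : ℂ → ℂ → ℂ) (N n : ℕ) (U : Set (ℂ × ℂ)) (M : ℕ → ℂ → ℂ)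
    (a q : ℕ → ℂ × ℂ → ℂ) : Prop where
  sw : SWord U N n M a q
  a0 : ∀ u ∈ U, a 0 u = nat α N 0 u
  q0 : ∀ u ∈ U, q 0 u = nat p N 0 u
  an : ∃ k : ℤ, ∀ u ∈ U, a n u = nat α N n u + 2 * Real.pi * k
  qn : ∀ u ∈ U, q n u = nat p N n u
  tr : ∀ j < n, ∀ u ∈ U, Tr κ H (M j) (mid (a j) (a (j + 1)) u)
  tv : ∃ j < n, Tv U (a j) (a (j + 1))

/-- F3 : STAR -/
def F3 : Prop := ∀ {κ Λ : ℝ} {H Φ : ℂ → ℂ} {r e : ℝ} {α p : ℂ → ℂ → ℂ} {J : ℂ → ℂ},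
  Ctx κ Λ H Φ r e α p J → ∀ {n : ℕ} {Ω : Set (ℂ × ℂ)} {a0 q0 an qn : ℂ × ℂ → ℂ},
  Dom Ω → Outer Ω α p n a0 q0 an qn →
  (∀ j ≤ n, AlgOn Ω (fun u => exp (I * nat α 1 j u)) ∧ AlgOn Ω (nat p 1 j)) →
  ¬ (∀ j ≤ n, QuoOn Ω (fun u => exp (I * nat α 1 j u)) ∧ QuoOn Ω (nat p 1 j)) →
  ∃ (N : ℕ) (t0 : ℝ) (r0 : ℝ) (M : ℕ → ℂ → ℂ) (a q : ℕ → ℂ × ℂ → ℂ),
    NBox H r e α p N n t0 r0 ∧ Star κ H α p N n (Box t0 r0) M a q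

/-- F4 : finite type from the closed word -/
def F4 : Prop := ∀ {κ Λ : ℝ} {H Φ : ℂ → ℂ} {r e : ℝ} {α p : ℂ → ℂ → ℂ} {J : ℂ → ℂ},
  Ctx κ Λ H Φ r e α p J → ∀ {N n : ℕ} {t0 : ℝ} {r0 : ℝ} {M : ℕ → ℂ → ℂ} {a q : ℕ → ℂ × ℂ → ℂ},
    NBox H r e α p N n t0 r0 → Star κ H α p N n (Box t0 r0) M a q → HFin κ H

/-- F5a : the closed word can be deformed, with pairwise different displacements of the natural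
letters -/
def F5a : Prop := ∀ {κ Λ : ℝ} {H Φ : ℂ → ℂ} {r e : ℝ} {α p : ℂ → ℂ → ℂ} {J : ℂ → ℂ},
  Ctx κ Λ H Φ r e α p J → HFin κ H → ¬ HAlg κ H →
  ∀ {N n : ℕ} {t0 : ℝ} {r0 : ℝ} {M : ℕ → ℂ → ℂ} {a q : ℕ → ℂ × ℂ → ℂ},
    NBox H r e α p N n t0 r0 → Star κ H α p N n (Box t0 r0) M a q →
    ∃ (t1 : ℝ) (r1 : ℝ) (u2 : ℂ × ℂ) (G : ℕ → ℂ × ℂ → ℂ) (A Q : ℕ → (ℂ × ℂ) × ℂ → ℂ)
      (G' : ℕ → ℂ × ℂ → ℂ) (A' Q' : ℕ → (ℂ × ℂ) × ℂ → ℂ) (k : ℤ),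
      NBox H r e α p N n t1 r1 ∧ Star κ H α p N n (Box t1 r1) M a q ∧
      Def (Box t1 r1) n (fun _ => H) (nat α N) (nat p N) G u2 A Q ∧
      Def (Box t1 r1) n M a q G' u2 A' Q' ∧
      (∀ᶠ v in 𝓝 (u2, (0 : ℂ)), A' n v = A n v + 2 * Real.pi * k ∧ Q' n v = Q n v) ∧
      ∀ i < n, ∀ j < n, i ≠ j → ¬ ∀ᶠ z in 𝓝 (α t1 0), disp (G i) z = disp (G j) z

/-- F5b : such a deformation does not exist (glancing scale) -/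
def F5b : Prop := ∀ {κ Λ : ℝ} {H Φ : ℂ → ℂ} {r e : ℝ} {α p : ℂ → ℂ → ℂ} {J : ℂ → ℂ},
  Ctx κ Λ H Φ r e α p J →
  ∀ {N n : ℕ} {M : ℕ → ℂ → ℂ} {a q : ℕ → ℂ × ℂ → ℂ}
    {t1 : ℝ} {r1 : ℝ} {u2 : ℂ × ℂ} {G : ℕ → ℂ × ℂ → ℂ} {A Q : ℕ → (ℂ × ℂ) × ℂ → ℂ}
    {G' : ℕ → ℂ × ℂ → ℂ} {A' Q' : ℕ → (ℂ × ℂ) × ℂ → ℂ} {k : ℤ},
      NBox H r e α p N n t1 r1 → Star κ H α p N n (Box t1 r1) M a q →
      Def (Box t1 r1) n (fun _ => H) (nat α N) (nat p N) G u2 A Q →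
      Def (Box t1 r1) n M a q G' u2 A' Q' →
      (∀ᶠ v in 𝓝 (u2, (0 : ℂ)), A' n v = A n v + 2 * Real.pi * k ∧ Q' n v = Q n v) →
      (∀ i < n, ∀ j < n, i ≠ j → ¬ ∀ᶠ z in 𝓝 (α t1 0), disp (G i) z = disp (G j) z) → False

/-- **FCT, the finite chain theorem** -/
def FCT : Prop := ∀ {κ Λ : ℝ} {H Φ : ℂ → ℂ} {r e : ℝ} {α p : ℂ → ℂ → ℂ} {J : ℂ → ℂ},
  Ctx κ Λ H Φ r e α p J → ¬ HAlg κ H → ∀ {n : ℕ} {Ω : Set (ℂ × ℂ)} {a0 q0 an qn : ℂ × ℂ → ℂ},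
  Dom Ω → Outer Ω α p n a0 q0 an qn →
  ∀ j ≤ n, QuoOn Ω (fun u => exp (I * nat α 1 j u)) ∧ QuoOn Ω (nat p 1 j)

theorem fct_of (h2 : F2) (h3 : F3) (h4 : F4) (h5a : F5a) (h5b : F5b) : FCT := by
  intro κ Λ H Φ r e α p J T hna n Ω a0 q0 an qn hΩ hO
  by_contra hne
  obtain ⟨N, t0, r0, M, a, q, nb, st⟩ := h3 T hΩ hO (h2 T hΩ hO) hne
  obtain ⟨t1, r1, u2, G, A, Q, G', A', Q', k, nb1, st1, D, D', cl, hd⟩ :=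
    h5a T (h4 T nb st) hna nb st
  exact h5b T nb1 st1 D D' cl hd

end

end Vale.Agent.P097.H456.Fct
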