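import Vale.Agent.P097.H456.Fct.B2
import Vale.Agent.P097.H365.F5.Defs
import Vale.Agent.P097.H320.PState

set_option linter.all false

/-! # P097 / FCT / row F5a : bridge from the core form of H365 to the literal row -/

open Complex Metric Filter Topology Set
open scoped ComplexConjugate
open Vale.Agent.P097.TA

namespace Vale.Agent.P097.H456.Fct

open Vale.Agent.P097.H202

variable {κ Λ : ℝ} {H Φ : ℂ → ℂ} {r e : ℝ} {α p : ℂ → ℂ → ℂ} {J : ℂ → ℂ}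

/-- `(e^{iψ}, H)` algebraically independent on every disc of the strip -/
theorem indep_of (T : Ctx κ Λ H Φ r e α p J) (hna : ¬ HAlg κ H) {c : ℂ} {R : ℝ} (hR : 0 < R)
    (hc : ball c R ⊆ Str κ) (Q : MvPolynomial (Fin 2) ℂ)
    (hQ : ∀ ψ ∈ ball c R, MvPolynomial.eval ![exp (I * ψ), H ψ] Q = 0) : Q = 0 := by
  by_contra hne
  apply hna
  refine ⟨Q, hne, fun z hz => ?_⟩
  have hv : ∀ z : ℂ, (Fin.cons (exp (I * z)) fun i : Fin (0 + 1) => iteratedDeriv i H z :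
      Fin (0 + 2) → ℂ) = ![exp (I * z), H z] := by
    intro z
    funext i
    fin_cases i
    · rfl
    · show iteratedDeriv 0 H z = H z
      rw [iteratedDeriv_zero]
  have han : AnalyticOnNhd ℂ (fun ψ => MvPolynomial.eval ![exp (I * ψ), H ψ] Q) (Str κ) := by
    intro w hw
    have h1 : ∀ i : Fin 2, AnalyticAt ℂ (fun ψ => (![exp (I * ψ), H ψ] : Fin 2 → ℂ) i) w := by
      intro i
      fin_cases i
      · simp only [Fin.zero_eta, Matrix.cons_val_zero]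
        fun_prop
      · simpa using H_an T hw
    have h2 := AnalyticAt.aeval_mvPolynomial (𝕜 := ℂ) (A := ℂ)
      (f := fun ψ => (![exp (I * ψ), H ψ] : Fin 2 → ℂ)) h1 Q
    simpa [MvPolynomial.aeval_eq_eval] using h2
  have h0 := han.eqOn_zero_of_preconnected_of_eventuallyEq_zero (convex_Str κ).isPreconnected
    (hc (mem_ball_self hR)) (by
      filter_upwards [ball_mem_nhds c hR] with w hw
      exact hQ w hw)
  have := h0 hz
  rw [Rel, hv]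
  exact this

theorem not_ev_zero {D : ℂ → ℂ} {U : Set ℂ} (hU : IsPreconnected U) (hD : AnalyticOnNhd ℂ D U)
    (hne : ∃ z ∈ U, D z ≠ 0) {c : ℂ} (hc : c ∈ U) : ¬ ∀ᶠ z in 𝓝 c, D z = 0 := by
  intro h
  obtain ⟨z, hz, h1⟩ := hne
  exact h1 (hD.eqOn_zero_of_preconnected_of_eventuallyEq_zero hU hc h hz)

/-- restriction of a word to the core form -/
theorem wordOn_of {U V : Set (ℂ × ℂ)} {N n : ℕ} {M : ℕ → ℂ → ℂ} {a q : ℕ → ℂ × ℂ → ℂ}
    (h : SWord V N n M a q) (hUV : U ⊆ V) (h0 : ∀ u ∈ U, u.2 ≠ 0) {D : ℕ → Set ℂ}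
    (hm : ∀ k < n, ∀ u ∈ U, mid (a k) (a (k + 1)) u ∈ D k) :
    H365.F5.WordOn n U M D a q where
  aA := fun k hk u hu => h.aA k hk u (hUV hu)
  pA := fun k hk u hu => h.qA k hk u (hUV hu)
  rf := fun k hk u hu => h.lt k hk u (hUV hu)
  nd := fun k hk u hu => mul_ne_zero (h.curv k hk u (hUV hu)) (h.sn k hk u (hUV hu) (h0 u hu))
  mem := hm

/-- a lift in the core form is a deformation -/
theorem def_of {U : Set (ℂ × ℂ)} {N n : ℕ} {M : ℕ → ℂ → ℂ} {a q : ℕ → ℂ × ℂ → ℂ}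
    {G : ℕ → ℂ × ℂ → ℂ} {u1 : ℂ × ℂ} {A P : ℕ → (ℂ × ℂ) × ℂ → ℂ} {c : ℕ → ℂ} {R : ℕ → ℝ} {e0 : ℝ}
    (he0 : 0 < e0) (hu1 : u1 ∈ U) (h0 : u1.2 ≠ 0)
    (hm : ∀ k < n, ∀ u ∈ U, mid (a k) (a (k + 1)) u ∈ ball (c k) (R k))
    (hG : ∀ k < n, AnalyticOnNhd ℂ (G k) (ball (c k) (R k) ×ˢ ball 0 e0))
    (hG0 : ∀ k < n, ∀ ψ ∈ ball (c k) (R k), G k (ψ, 0) = M k ψ)
    (L : H365.F5.Lift n a q G u1 A P) : Def U n M a q G u1 A P where
  mem := hu1
  w0 := h0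
  gA := fun j hj u hu => hG j hj _ ⟨hm j hj u hu, mem_ball_self he0⟩
  g0 := fun j hj u hu => by
    filter_upwards [isOpen_ball.mem_nhds (hm j hj u hu)] with z hz
    exact hG0 j hj z hz
  AA := L.aA
  QA := L.pA
  A0 := L.a0
  bs := L.bs
  lt := L.rf

theorem disp_an {G : ℂ × ℂ → ℂ} {c : ℂ} {R e0 : ℝ} (he0 : 0 < e0)
    (hG : AnalyticOnNhd ℂ G (ball c R ×ˢ ball 0 e0)) : AnalyticOnNhd ℂ (disp G) (ball c R) := by
  intro z hz
  have h1 : AnalyticAt ℂ G (z, 0) := hG _ ⟨hz, mem_ball_self he0⟩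
  have h2 : AnalyticAt ℂ (fun x : ℂ => fderiv ℂ G (x, 0) (0, 1)) z := by
    have h3 : AnalyticAt ℂ (fderiv ℂ G) (z, 0) := h1.fderiv
    have h4 : AnalyticAt ℂ (fun x : ℂ => (x, (0 : ℂ))) z := analyticAt_id.prod analyticAt_const
    have h5 : AnalyticAt ℂ (fun x : ℂ => fderiv ℂ G (x, 0)) z :=
      AnalyticAt.comp (g := fderiv ℂ G) (f := fun x : ℂ => (x, (0 : ℂ))) h3 h4
    exact ((ContinuousLinearMap.apply ℂ ℂ ((0 : ℂ), (1 : ℂ))).analyticAt _).comp h5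
  refine h2.congr ?_
  filter_upwards [isOpen_ball.mem_nhds hz] with x hx
  exact (fderiv_01 (hG (x, 0) ⟨hx, mem_ball_self he0⟩)).deriv.symm

/-- **the bridge** -/
theorem f5a_of (core : H365.F5.F5a) : F5a := by
  intro κ Λ H Φ r e α p J T hfin hna N n t0 r0 M a q nb st
  obtain ⟨m, P, hP0, hP⟩ := hfin
  have hκ := κ_pos T
  have hu0 : ((t0 : ℂ), (0 : ℂ)) ∈ Box t0 r0 := mem_Box0 nb.pos
  have hSo : IsOpen (Str κ) := isOpen_Str κ
  have hSc : IsPreconnected (Str κ) := (convex_Str κ).isPreconnected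
  have hα : ∀ t : ℝ, α t 0 ∈ Str κ := by
    intro t
    have := (ev_mid T le_rfl t 0 0 (N := 1)).self_of_nhds
    rwa [mid_zero le_rfl] at this
  -- natural state
  obtain ⟨k0, D0, hD0, hD0', hS0⟩ := H320.pstate hSo ⟨_, hα t0⟩ (fun z hz => H_an T hz) hP0 hP
  -- star states
  have hstar : ∀ j, ∃ (δ : ℝ) (kj : ℕ) (D : ℂ → ℂ), 0 < δ ∧ (j < n →
      AnalyticOnNhd ℂ D (ball (mid (a j) (a (j + 1)) ((t0 : ℂ), 0)) δ) ∧
      (∃ z ∈ ball (mid (a j) (a (j + 1)) ((t0 : ℂ), 0)) δ, D z ≠ 0) ∧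
      ∀ k ≥ kj, ∃ (Φ : Fin (k + 2) → MvPolynomial (Fin (k + 2)) ℂ) (z : ℂ → Fin (k + 2) → ℂ),
        H365.F5.PState Φ 0 1
          (ball (mid (a j) (a (j + 1)) ((t0 : ℂ), 0)) δ ∩ {ψ | D ψ ≠ 0}) (M j) z) := by
    intro j
    by_cases hj : j < n
    · have h1 : ∀ᶠ z in 𝓝 (mid (a j) (a (j + 1)) ((t0 : ℂ), 0)), AnalyticAt ℂ (M j) z :=
        (st.sw.mA j hj _ hu0).eventually_analyticAt
      have h2 := st.tr j hj _ hu0 m P hP
      obtain ⟨δ, hδ, hb⟩ := Metric.eventually_nhds_iff_ball.1 (h1.and h2)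
      obtain ⟨kj, D, g1, g2, g3⟩ := H320.pstate isOpen_ball ⟨_, mem_ball_self hδ⟩
        (fun z hz => (hb z hz).1) hP0 (fun z hz => (hb z hz).2)
      exact ⟨δ, kj, D, hδ, fun _ => ⟨g1, g2, g3⟩⟩
    · exact ⟨1, 0, fun _ => 0, one_pos, fun h => absurd h hj⟩
  choose δ kj D hδ hD using hstar
  set k := k0 + ∑ j ∈ Finset.range n, kj j with hk
  have hkj : ∀ j < n, kj j ≤ k := fun j hj =>
    (Finset.single_le_sum (f := kj) (fun _ _ => Nat.zero_le _) (Finset.mem_range.2 hj)).trans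
      (Nat.le_add_left _ _)
  obtain ⟨Φ0, z0, hz0⟩ := hS0 k (Nat.le_add_right _ _)
  have hst2 : ∀ j, ∃ (Φ : Fin (k + 2) → MvPolynomial (Fin (k + 2)) ℂ) (z : ℂ → Fin (k + 2) → ℂ),
      j < n → H365.F5.PState Φ 0 1
        (ball (mid (a j) (a (j + 1)) ((t0 : ℂ), 0)) (δ j) ∩ {ψ | D j ψ ≠ 0}) (M j) z := by
    intro j
    by_cases hj : j < n
    · obtain ⟨Φ, z, h⟩ := (hD j hj).2.2 k (hkj j hj)
      exact ⟨Φ, z, fun _ => h⟩
    · exact ⟨fun _ => 0, fun _ _ => 0, fun h => absurd h hj⟩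
  choose Φs zs hzs using hst2
  -- the vertices stay in the discs
  have hnear : ∃ η > 0, ∀ x : ℝ, |x - t0| < η → ∀ j < n,
      mid (a j) (a (j + 1)) ((x : ℂ), 0) ∈ ball (mid (a j) (a (j + 1)) ((t0 : ℂ), 0)) (δ j) := by
    have h1 : ∀ᶠ u in 𝓝 ((t0 : ℂ), (0 : ℂ)), ∀ j ∈ Finset.range n,
        mid (a j) (a (j + 1)) u ∈ ball (mid (a j) (a (j + 1)) ((t0 : ℂ), 0)) (δ j) := by
      rw [Filter.eventually_all_finset]
      intro j hj
      exact (mid_cont st.sw.toWord (Finset.mem_range.1 hj) hu0).continuousAt.eventually_mem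
        (ball_mem_nhds _ (hδ j))
    obtain ⟨η, hη, hb⟩ := Box_ev h1
    refine ⟨η, hη, fun x hx j hj => hb _ ⟨?_, mem_ball_self hη⟩ j (Finset.mem_range.2 hj)⟩
    rw [mem_ball, dist_eq_norm, ← ofReal_sub, Complex.norm_real]
    exact hx
  obtain ⟨η, hη, hη1⟩ := hnear
  obtain ⟨t1, ht1, e1, e2, r1, hr1, hsub1, nb1, st1⟩ := move T nb st (hD0 _ (hα t0))
    (not_ev_zero hSc hD0 hD0' (hα t0)) (D := D)
    (fun j hj => (hD j hj).1 _ (mem_ball_self (hδ j)))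
    (fun j hj => not_ev_zero (convex_ball _ _).isPreconnected (hD j hj).1 (hD j hj).2.1
      (mem_ball_self (hδ j))) hη
  have hu1 : ((t1 : ℂ), (0 : ℂ)) ∈ Box t1 r1 := mem_Box0 hr1
  -- open sets
  have hV0o : IsOpen (Str κ ∩ {ψ | D0 ψ ≠ 0}) :=
    ContinuousOn.isOpen_inter_preimage hD0.continuousOn hSo isOpen_compl_singleton
  have hVo : ∀ j < n, IsOpen (ball (mid (a j) (a (j + 1)) ((t0 : ℂ), 0)) (δ j) ∩
      {ψ | D j ψ ≠ 0}) := fun j hj =>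
    ContinuousOn.isOpen_inter_preimage (hD j hj).1.continuousOn isOpen_ball isOpen_compl_singleton
  obtain ⟨r2, R, R', hr2, hr21, hR, hR', nb2, st2, c1, c2, c3, c4⟩ := shrink T nb1 st1
    (V0 := Str κ ∩ {ψ | D0 ψ ≠ 0}) (hV0o.mem_nhds ⟨hα t1, e1⟩)
    (V := fun j => ball (mid (a j) (a (j + 1)) ((t0 : ℂ), 0)) (δ j) ∩ {ψ | D j ψ ≠ 0})
    (fun j hj => (hVo j hj).mem_nhds ⟨hη1 t1 ht1 j hj, e2 j hj⟩)
  -- the domain away from `s = 0`
  set U : Set (ℂ × ℂ) := ball (t1 : ℂ) r2 ×ˢ ball (((r2 / 2 : ℝ)) : ℂ) (r2 / 4) with hU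
  have hUB : U ⊆ Box t1 r2 := by
    rintro u ⟨h1, h2⟩
    refine ⟨h1, ?_⟩
    rw [mem_ball, dist_eq_norm] at h2 ⊢
    have h3 := norm_sub_norm_le u.2 (((r2 / 2 : ℝ)) : ℂ)
    rw [Complex.norm_real, Real.norm_of_nonneg (by positivity : (0 : ℝ) ≤ r2 / 2)] at h3
    rw [sub_zero]
    linarith
  have hU0 : ∀ u ∈ U, u.2 ≠ 0 := by
    rintro u ⟨h1, h2⟩ h3
    rw [mem_ball, h3, dist_eq_norm, zero_sub, norm_neg, Complex.norm_real,
      Real.norm_of_nonneg (by positivity : (0 : ℝ) ≤ r2 / 2)] at h2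
    linarith
  have hUm : ((t1 : ℂ), (((r2 / 2 : ℝ)) : ℂ)) ∈ U := ⟨mem_ball_self hr2, mem_ball_self (by positivity)⟩
  have hUo : IsOpen U := isOpen_ball.prod isOpen_ball
  have hUc : IsPreconnected U := ((convex_ball _ _).prod (convex_ball _ _)).isPreconnected
  obtain ⟨kk, hkk⟩ := st2.an
  obtain ⟨u1, hu1U, e0, he0, HN, HS, d1, d2, d3, d4, d5, A, P1, A', P1', m0, L1, L2, hm0, hcl⟩ :=
    core (n := n) (n' := n) (τ := Fin (k + 2)) (τ' := Fin (k + 2)) hUo hUc (i0 := 0) (i1 := 1)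
      (c := α t1 0) (R := R) (V := Str κ ∩ {ψ | D0 ψ ≠ 0}) (h := H) (Φ := Φ0) (z := z0)
      (al := nat α N) (p := nat p N) hR hV0o c1 hz0
      (fun Q hQ => indep_of T hna hR ((ball_subset_closedBall.trans c1).trans inter_subset_left) Q hQ)
      (wordOn_of nb2.sw hUB hU0 (fun k hk u hu => (c3 u (hUB hu) k hk).1))
      (fun i hi j hj hij => ⟨_, hUm, (c4 _ (hUB hUm) (hU0 _ hUm)).1 i hi j hj hij⟩)
      (i0' := fun _ => 0) (i1' := fun _ => 1)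
      (c' := fun j => mid (a j) (a (j + 1)) ((t1 : ℂ), 0)) (R' := R')
      (V' := fun j => ball (mid (a j) (a (j + 1)) ((t0 : ℂ), 0)) (δ j) ∩ {ψ | D j ψ ≠ 0})
      (h' := M) (Φ' := Φs) (z' := zs) (al' := a) (p' := q)
      hR' hVo c2 (fun j hj => hzs j hj)
      (wordOn_of st2.sw hUB hU0 (fun k hk u hu => (c3 u (hUB hu) k hk).2))
      ⟨_, hUm, (c4 _ (hUB hUm) (hU0 _ hUm)).2⟩
      (fun u hu => ⟨st2.a0 u (hUB hu), st2.q0 u (hUB hu)⟩)
      (fun u hu => ⟨by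
        rw [hkk u (hUB hu), mul_add, Complex.exp_add]
        have : I * (2 * (Real.pi : ℂ) * kk) = kk * (2 * Real.pi * I) := by ring
        rw [this, Complex.exp_int_mul_two_pi_mul_I, mul_one], st2.qn u (hUB hu)⟩)
  obtain ⟨k1, hk1⟩ := Complex.exp_eq_one_iff.1 hm0
  have hm0' : m0 = 2 * Real.pi * k1 := by
    have h1 : I * m0 = I * (2 * Real.pi * k1) := by rw [hk1]; ring
    exact mul_left_cancel₀ I_ne_zero h1
  refine ⟨t1, r2, u1, HN, A, P1, HS, A', P1', k1, nb2, st2, ?_, ?_, ?_, ?_⟩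
  · exact def_of (N := N) (c := fun _ => α t1 0) (R := fun _ => R) he0 (hUB hu1U) (hU0 _ hu1U)
      (fun k hk u hu => (c3 u hu k hk).1) d1 (fun k hk ψ hψ => d2 k hk ψ hψ) L1
  · exact def_of (N := N) he0 (hUB hu1U) (hU0 _ hu1U) (fun k hk u hu => (c3 u hu k hk).2) d3 d4 L2
  · filter_upwards [hcl] with v hv
    rw [hv.1, hv.2, hm0']
    exact ⟨rfl, rfl⟩
  · intro i hi j hj hij hev
    obtain ⟨ψ, hψ, hne⟩ := d5 i hi j hj hij
    apply hne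
    have h1 := (disp_an he0 (d1 i hi)).eqOn_of_preconnected_of_eventuallyEq (disp_an he0 (d1 j hj))
      (convex_ball _ _).isPreconnected (mem_ball_self hR) hev
    exact h1 hψ

end Vale.Agent.P097.H456.Fct
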