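import Vale.Agent.P097.H456.Fct.F1

set_option linter.all false

/-! # P097 / FCT : boxes (restriction, shrinking, moving the centre, Jacobians) -/

open Complex Metric Filter Topology Set
open scoped ComplexConjugate
open Vale.Agent.P097.TA

namespace Vale.Agent.P097.H456.Fct

open Vale.Agent.P097.H202

variable {κ Λ : ℝ} {H Φ : ℂ → ℂ} {r e : ℝ} {α p : ℂ → ℂ → ℂ} {J : ℂ → ℂ}

/-! ### restriction -/

theorem Word.mono {U V : Set (ℂ × ℂ)} {n : ℕ} {M : ℕ → ℂ → ℂ} {a q : ℕ → ℂ × ℂ → ℂ}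
    (h : Word U n M a q) (hV : V ⊆ U) : Word V n M a q where
  aA := fun j hj u hu => h.aA j hj u (hV hu)
  qA := fun j hj u hu => h.qA j hj u (hV hu)
  mA := fun j hj u hu => h.mA j hj u (hV hu)
  lt := fun j hj u hu => h.lt j hj u (hV hu)

theorem SWord.mono {U V : Set (ℂ × ℂ)} {N n : ℕ} {M : ℕ → ℂ → ℂ} {a q : ℕ → ℂ × ℂ → ℂ}
    (h : SWord U N n M a q) (hV : V ⊆ U) : SWord V N n M a q where
  toWord := h.toWord.mono hV
  kind := fun j hj => by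
    rcases h.kind j hj with h1 | ⟨k, D, h1, h2, h3⟩
    · exact Or.inl fun u hu => h1 u (hV hu)
    · exact Or.inr ⟨k, D, fun u hu => h1 u (hV hu), fun u hu => h2 u (hV hu),
        fun u hu => h3 u (hV hu)⟩
  sn := fun j hj u hu => h.sn j hj u (hV hu)
  vt := fun j hj u hu => h.vt j hj u (hV hu)
  curv := fun j hj u hu => h.curv j hj u (hV hu)

theorem Star.mono {U V : Set (ℂ × ℂ)} {N n : ℕ} {M : ℕ → ℂ → ℂ} {a q : ℕ → ℂ × ℂ → ℂ}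
    (h : Star κ H α p N n U M a q) (hV : V ⊆ U) : Star κ H α p N n V M a q where
  sw := h.sw.mono hV
  a0 := fun u hu => h.a0 u (hV hu)
  q0 := fun u hu => h.q0 u (hV hu)
  an := by
    obtain ⟨k, hk⟩ := h.an
    exact ⟨k, fun u hu => hk u (hV hu)⟩
  qn := fun u hu => h.qn u (hV hu)
  tr := fun j hj u hu => h.tr j hj u (hV hu)
  tv := by
    obtain ⟨j, hj, h1⟩ := h.tv
    exact ⟨j, hj, fun u hu => h1 u (hV hu)⟩

theorem NBox.mono {N n : ℕ} {t0 t1 : ℂ} {r0 r1 : ℝ} (h : NBox H r e α p N n t0 r0) (h1 : 0 < r1)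
    (hB : Box t1 r1 ⊆ Box t0 r0) : NBox H r e α p N n t1 r1 where
  pos := h1
  N1 := h.N1
  mem := fun u hu => h.mem u (hB hu)
  sw := h.sw.mono hB

theorem mem_Box0 {t : ℂ} {r1 : ℝ} (h : 0 < r1) : (t, (0 : ℂ)) ∈ Box t r1 :=
  ⟨mem_ball_self h, mem_ball_self h⟩

theorem Box_mono {t0 t1 : ℂ} {r0 r1 : ℝ} (h : dist t1 t0 + r1 ≤ r0) : Box t1 r1 ⊆ Box t0 r0 := by
  rintro u ⟨h1, h2⟩
  have h3 : dist u.1 t1 < r1 := h1
  have h4 : dist u.2 0 < r1 := h2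
  have h5 := dist_triangle u.1 t1 t0
  have h6 : 0 ≤ dist t1 t0 := dist_nonneg
  exact ⟨by show dist u.1 t0 < r0; linarith, by show dist u.2 0 < r0; linarith⟩

theorem Box_ev {t0 : ℂ} {P : ℂ × ℂ → Prop} (h : ∀ᶠ u in 𝓝 (t0, (0 : ℂ)), P u) :
    ∃ r1 > 0, ∀ u ∈ Box t0 r1, P u := by
  obtain ⟨r0, hr0, hb⟩ := Metric.eventually_nhds_iff_ball.1 h
  refine ⟨r0, hr0, fun u hu => hb u ?_⟩
  rw [mem_ball, Prod.dist_eq]
  exact max_lt hu.1 hu.2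

/-! ### Jacobians -/

/-- Jacobian determinant of two functions of two variables. -/
noncomputable def jac (f g : ℂ × ℂ → ℂ) (u : ℂ × ℂ) : ℂ :=
  fderiv ℂ f u (1, 0) * fderiv ℂ g u (0, 1) - fderiv ℂ f u (0, 1) * fderiv ℂ g u (1, 0)

theorem fderiv_10 {f : ℂ × ℂ → ℂ} {u : ℂ × ℂ} (hf : AnalyticAt ℂ f u) :
    HasDerivAt (fun x => f (x, u.2)) (fderiv ℂ f u (1, 0)) u.1 := by
  have h3 : HasDerivAt (fun x : ℂ => (x, u.2)) ((1 : ℂ), 0) u.1 :=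
    (hasDerivAt_id u.1).prodMk (hasDerivAt_const u.1 u.2)
  exact hf.differentiableAt.hasFDerivAt.comp_hasDerivAt u.1 h3

theorem fderiv_01 {f : ℂ × ℂ → ℂ} {u : ℂ × ℂ} (hf : AnalyticAt ℂ f u) :
    HasDerivAt (fun x => f (u.1, x)) (fderiv ℂ f u (0, 1)) u.2 := by
  have h3 : HasDerivAt (fun x : ℂ => (u.1, x)) ((0 : ℂ), 1) u.2 :=
    (hasDerivAt_const u.2 u.1).prodMk (hasDerivAt_id u.2)
  exact hf.differentiableAt.hasFDerivAt.comp_hasDerivAt u.2 h3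

/-- chain rule for `g ∘ sub N j` -/
theorem fderiv_sub {f : ℂ → ℂ → ℂ} (hf : JD f (WW 0 r e)) {N j : ℕ} {u : ℂ × ℂ}
    (hu : sub N j u ∈ WW 0 r e) :
    fderiv ℂ (nat f N j) u (1, 0) = fderiv ℂ (fun p : ℂ × ℂ => f p.1 p.2) (sub N j u) (1, 0) ∧
    fderiv ℂ (nat f N j) u (0, 1) = (N * u.2 ^ (N - 1)) *
      fderiv ℂ (fun p : ℂ × ℂ => f p.1 p.2) (sub N j u) ((j : ℂ), 1) := by
  have hA := (an_of_JD hf hu).differentiableAt.hasFDerivAt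
  have hn := nat_an hf hu
  constructor
  · have h1 : HasDerivAt (fun x : ℂ => (x + j * u.2 ^ N, u.2 ^ N)) ((1 : ℂ), 0) u.1 :=
      ((hasDerivAt_id u.1).add_const _).prodMk (hasDerivAt_const u.1 _)
    have h2 := HasFDerivAt.comp_hasDerivAt (f := fun x : ℂ => (x + j * u.2 ^ N, u.2 ^ N)) u.1 hA h1
    exact (fderiv_10 hn).unique h2
  · have h0 : HasDerivAt (fun x : ℂ => x ^ N) (N * u.2 ^ (N - 1)) u.2 := hasDerivAt_pow N u.2
    have h1 : HasDerivAt (fun x : ℂ => (u.1 + j * x ^ N, x ^ N))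
        ((j : ℂ) * (N * u.2 ^ (N - 1)), (N * u.2 ^ (N - 1) : ℂ)) u.2 :=
      ((h0.const_mul (j : ℂ)).const_add u.1).prodMk h0
    have h2 := HasFDerivAt.comp_hasDerivAt (f := fun x : ℂ => (u.1 + j * x ^ N, x ^ N)) u.2 hA h1
    have h3 := (fderiv_01 hn).unique h2
    rw [h3]
    have h4 : (((j : ℂ) * (N * u.2 ^ (N - 1)), (N * u.2 ^ (N - 1) : ℂ)) : ℂ × ℂ) =
        (N * u.2 ^ (N - 1) : ℂ) • ((j : ℂ), (1 : ℂ)) := by
      ext
      · simp; ring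
      · simp
    rw [h4, map_smul, smul_eq_mul]

/-- Jacobian of the outer line 0 -/
theorem jac_base (T : Ctx κ Λ H Φ r e α p J) {N : ℕ} (hN : 1 ≤ N) {u : ℂ × ℂ}
    (hu : sub N 0 u ∈ WW 0 r e) (h0 : u.2 ≠ 0) : jac (nat α N 0) (nat p N 0) u ≠ 0 := by
  have L := T.ln
  obtain ⟨a1, a2⟩ := fderiv_sub L.jα hu
  obtain ⟨b1, b2⟩ := fderiv_sub L.jp hu
  have hw : u.2 ^ N ≠ 0 := pow_ne_zero _ h0
  have hu' : (u.1, u.2 ^ N) ∈ WW 0 r e := by simpa [sub] using hu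
  have e0 : sub N 0 u = (u.1, u.2 ^ N) := by simp [sub]
  have hα := an_of_JD L.jα hu'
  have hp := an_of_JD L.jp hu'
  have hJ := L.brk _ _ hu'
  have c1 : dx α u.1 (u.2 ^ N) = fderiv ℂ (fun p : ℂ × ℂ => α p.1 p.2) (u.1, u.2 ^ N) (1, 0) :=
    (fderiv_10 hα).deriv
  have c2 : de α u.1 (u.2 ^ N) = fderiv ℂ (fun p : ℂ × ℂ => α p.1 p.2) (u.1, u.2 ^ N) (0, 1) :=
    (fderiv_01 hα).deriv
  have c3 : dx p u.1 (u.2 ^ N) = fderiv ℂ (fun x : ℂ × ℂ => p x.1 x.2) (u.1, u.2 ^ N) (1, 0) :=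
    (fderiv_10 hp).deriv
  have c4 : de p u.1 (u.2 ^ N) = fderiv ℂ (fun x : ℂ × ℂ => p x.1 x.2) (u.1, u.2 ^ N) (0, 1) :=
    (fderiv_01 hp).deriv
  have hbr : br α p u.1 (u.2 ^ N) = J (u.2 ^ N) := hJ
  have hJ0 : J (u.2 ^ N) ≠ 0 := L.Jne _ hu'.1 hw
  rw [br, c1, c2, c3, c4] at hbr
  rw [jac, a1, a2, b1, b2, e0]
  have e1 : (((0 : ℕ) : ℂ), (1 : ℂ)) = (0, 1) := by simp
  rw [e1]
  have hN0 : (N : ℂ) ≠ 0 := by exact_mod_cast (by omega : N ≠ 0)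
  have h9 : (N * u.2 ^ (N - 1) : ℂ) * J (u.2 ^ N) ≠ 0 :=
    mul_ne_zero (mul_ne_zero hN0 (pow_ne_zero _ h0)) hJ0
  intro h
  apply h9
  rw [← hbr]
  linear_combination h

/-- Jacobians of two natural vertices -/
theorem jac_mid (T : Ctx κ Λ H Φ r e α p J) {N : ℕ} (hN : 1 ≤ N) (t : ℝ) {i j : ℕ} (hij : i ≠ j) :
    ∀ᶠ u in 𝓝 ((t : ℂ), (0 : ℂ)), u.2 ≠ 0 →
      jac (mid (nat α N i) (nat α N (i + 1))) (mid (nat α N j) (nat α N (j + 1))) u ≠ 0 := by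
  have L := T.ln
  set A : ℂ × ℂ → (ℂ × ℂ →L[ℂ] ℂ) := fun x => fderiv ℂ (fun p : ℂ × ℂ => α p.1 p.2) x with hA
  set X : ℕ → ℂ × ℂ → ℂ := fun i u => (A (sub N i u) (1, 0) + A (sub N (i + 1) u) (1, 0)) / 2 with hX
  set Y : ℕ → ℂ × ℂ → ℂ := fun i u =>
    (A (sub N i u) ((i : ℂ), 1) + A (sub N (i + 1) u) (((i + 1 : ℕ) : ℂ), 1)) / 2 with hY
  have hAc : ContinuousAt A ((t : ℂ), 0) := (an_of_JD L.jα (real_mem L t 0)).fderiv.continuousAt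
  have hsc : ∀ (i : ℕ) (v : ℂ × ℂ), ContinuousAt (fun u => A (sub N i u) v) ((t : ℂ), 0) := by
    intro i v
    have h1 : ContinuousAt A (sub N i ((t : ℂ), 0)) := by rw [sub_zero' hN]; exact hAc
    exact (ContinuousAt.comp (g := A) (f := sub N i) h1 (sub_an N i _).continuousAt).clm_apply
      continuousAt_const
  have hXc : ∀ i, ContinuousAt (X i) ((t : ℂ), 0) := fun i =>
    ((hsc i (1, 0)).add (hsc (i + 1) (1, 0))).div_const 2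
  have hYc : ∀ i, ContinuousAt (Y i) ((t : ℂ), 0) := fun i =>
    ((hsc i _).add (hsc (i + 1) _)).div_const 2
  obtain ⟨c, hc, hd⟩ := deriv_α T t
  have hc' : A ((t : ℂ), 0) (1, 0) = c := by
    have h4 := fderiv_10 (an_of_JD L.jα (real_mem L t 0))
    exact h4.unique hd
  have hlin : ∀ k : ℕ, A ((t : ℂ), 0) ((k : ℂ), 1) = k * c + A ((t : ℂ), 0) (0, 1) := by
    intro k
    have e1 : (((k : ℂ), (1 : ℂ)) : ℂ × ℂ) = (k : ℂ) • ((1 : ℂ), (0 : ℂ)) + ((0 : ℂ), (1 : ℂ)) := by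
      ext <;> simp
    rw [e1, map_add, map_smul, hc', smul_eq_mul]
  have hK : ContinuousAt (fun u => X i u * Y j u - Y i u * X j u) ((t : ℂ), 0) :=
    ((hXc i).mul (hYc j)).sub ((hYc i).mul (hXc j))
  have hK0 : X i ((t : ℂ), 0) * Y j ((t : ℂ), 0) - Y i ((t : ℂ), 0) * X j ((t : ℂ), 0) ≠ 0 := by
    simp only [hX, hY, sub_zero' hN]
    rw [hc', hlin, hlin, hlin, hlin]
    have h5 : (c + c) / 2 * ((↑j * c + A ((t : ℂ), 0) (0, 1) +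
        (((j + 1 : ℕ) : ℂ) * c + A ((t : ℂ), 0) (0, 1))) / 2) -
        (↑i * c + A ((t : ℂ), 0) (0, 1) + (((i + 1 : ℕ) : ℂ) * c + A ((t : ℂ), 0) (0, 1))) / 2 *
        ((c + c) / 2) = c ^ 2 * ((j : ℂ) - i) := by
      push_cast; ring
    rw [h5]
    refine mul_ne_zero (pow_ne_zero _ hc) (sub_ne_zero.2 ?_)
    exact_mod_cast hij.symm
  have hm : ∀ᶠ u in 𝓝 ((t : ℂ), (0 : ℂ)), sub N i u ∈ WW 0 r e ∧ sub N (i + 1) u ∈ WW 0 r e ∧
      sub N j u ∈ WW 0 r e ∧ sub N (j + 1) u ∈ WW 0 r e :=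
    (ev_mem L hN t i).and ((ev_mem L hN t (i + 1)).and ((ev_mem L hN t j).and (ev_mem L hN t (j + 1))))
  filter_upwards [hK.eventually_ne hK0, hm] with u h1 h2 h0
  have key : ∀ i : ℕ, sub N i u ∈ WW 0 r e → sub N (i + 1) u ∈ WW 0 r e →
      fderiv ℂ (mid (nat α N i) (nat α N (i + 1))) u (1, 0) = X i u ∧
      fderiv ℂ (mid (nat α N i) (nat α N (i + 1))) u (0, 1) = N * u.2 ^ (N - 1) * Y i u := by
    intro i g1 g2
    have n1 := nat_an L.jα g1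
    have n2 := nat_an L.jα g2
    have hm : AnalyticAt ℂ (mid (nat α N i) (nat α N (i + 1))) u := (n1.add n2).div_const
    obtain ⟨a1, a2⟩ := fderiv_sub L.jα g1
    obtain ⟨b1, b2⟩ := fderiv_sub L.jα g2
    have c1 := (fderiv_10 hm).unique (((fderiv_10 n1).add (fderiv_10 n2)).div_const 2)
    have c2 := (fderiv_01 hm).unique (((fderiv_01 n1).add (fderiv_01 n2)).div_const 2)
    rw [a1, b1] at c1
    rw [a2, b2] at c2
    refine ⟨c1, c2.trans ?_⟩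
    simp only [hY, hA]
    ring
  obtain ⟨k1, k2⟩ := key i h2.1 h2.2.1
  obtain ⟨k3, k4⟩ := key j h2.2.2.1 h2.2.2.2
  rw [jac, k1, k2, k3, k4]
  have hN0 : (N : ℂ) ≠ 0 := by exact_mod_cast (by omega : N ≠ 0)
  have h9 : (N * u.2 ^ (N - 1) : ℂ) * (X i u * Y j u - Y i u * X j u) ≠ 0 :=
    mul_ne_zero (mul_ne_zero hN0 (pow_ne_zero _ h0)) h1
  intro h
  apply h9
  linear_combination h

/-! ### shrinking and moving -/

theorem mid_zero {N : ℕ} (hN : 1 ≤ N) (i j : ℕ) (t : ℂ) :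
    mid (nat α N i) (nat α N j) (t, 0) = α t 0 := by
  simp only [mid, nat_zero hN]
  ring

theorem mid_cont {U : Set (ℂ × ℂ)} {n : ℕ} {M : ℕ → ℂ → ℂ} {a q : ℕ → ℂ × ℂ → ℂ}
    (h : Word U n M a q) {j : ℕ} (hj : j < n) {u : ℂ × ℂ} (hu : u ∈ U) :
    AnalyticAt ℂ (mid (a j) (a (j + 1))) u :=
  ((h.aA j hj.le u hu).add (h.aA (j + 1) hj u hu)).div_const

/-- **shrinking the box** so that the vertices lie in prescribed small discs -/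
theorem shrink (T : Ctx κ Λ H Φ r e α p J) {N n : ℕ} {t0 : ℝ} {r0 : ℝ} {M : ℕ → ℂ → ℂ}
    {a q : ℕ → ℂ × ℂ → ℂ} (nb : NBox H r e α p N n t0 r0)
    (st : Star κ H α p N n (Box t0 r0) M a q) {V0 : Set ℂ} (hV0 : V0 ∈ 𝓝 (α t0 0))
    {V : ℕ → Set ℂ} (hV : ∀ j < n, V j ∈ 𝓝 (mid (a j) (a (j + 1)) ((t0 : ℂ), 0))) :
    ∃ (r1 R : ℝ) (R' : ℕ → ℝ), 0 < r1 ∧ r1 ≤ r0 ∧ 0 < R ∧ (∀ j < n, 0 < R' j) ∧
      NBox H r e α p N n t0 r1 ∧ Star κ H α p N n (Box t0 r1) M a q ∧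
      closedBall (α t0 0) R ⊆ V0 ∧
      (∀ j < n, closedBall (mid (a j) (a (j + 1)) ((t0 : ℂ), 0)) (R' j) ⊆ V j) ∧
      (∀ u ∈ Box t0 r1, ∀ j < n, mid (nat α N j) (nat α N (j + 1)) u ∈ ball (α t0 0) R ∧
        mid (a j) (a (j + 1)) u ∈ ball (mid (a j) (a (j + 1)) ((t0 : ℂ), 0)) (R' j)) ∧
      (∀ u ∈ Box t0 r1, u.2 ≠ 0 → (∀ i < n, ∀ j < n, i ≠ j →
        jac (mid (nat α N i) (nat α N (i + 1))) (mid (nat α N j) (nat α N (j + 1))) u ≠ 0) ∧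
        jac (nat α N 0) (nat p N 0) u ≠ 0) := by
  obtain ⟨R, hR, hR1⟩ := Metric.nhds_basis_closedBall.mem_iff.1 hV0
  have hR' : ∀ j, ∃ R' : ℝ, 0 < R' ∧ (j < n →
      closedBall (mid (a j) (a (j + 1)) ((t0 : ℂ), 0)) R' ⊆ V j) := by
    intro j
    by_cases hj : j < n
    · obtain ⟨R', h1, h2⟩ := Metric.nhds_basis_closedBall.mem_iff.1 (hV j hj)
      exact ⟨R', h1, fun _ => h2⟩
    · exact ⟨1, one_pos, fun h => absurd h hj⟩
  choose R' hR'0 hR'1 using hR'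
  have hu0 : ((t0 : ℂ), (0 : ℂ)) ∈ Box t0 r0 := mem_Box0 nb.pos
  have key : ∀ᶠ u in 𝓝 ((t0 : ℂ), (0 : ℂ)), (∀ j ∈ Finset.range n,
      mid (nat α N j) (nat α N (j + 1)) u ∈ ball (α t0 0) R ∧
      mid (a j) (a (j + 1)) u ∈ ball (mid (a j) (a (j + 1)) ((t0 : ℂ), 0)) (R' j)) ∧
      ∀ i ∈ Finset.range n, ∀ j ∈ Finset.range n, i ≠ j → u.2 ≠ 0 →
        jac (mid (nat α N i) (nat α N (i + 1))) (mid (nat α N j) (nat α N (j + 1))) u ≠ 0 := by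
    refine Eventually.and ?_ ?_
    · rw [Filter.eventually_all_finset]
      intro j hj
      have hj' := Finset.mem_range.1 hj
      have h1 := (mid_cont nb.sw.toWord hj' hu0).continuousAt
      have h2 := (mid_cont st.sw.toWord hj' hu0).continuousAt
      refine (h1.eventually_mem ?_).and (h2.eventually_mem (ball_mem_nhds _ (hR'0 j)))
      rw [mid_zero nb.N1]
      exact ball_mem_nhds _ hR
    · rw [Filter.eventually_all_finset]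
      intro i hi
      rw [Filter.eventually_all_finset]
      intro j hj
      by_cases hij : i = j
      · exact Eventually.of_forall fun u h => absurd hij h
      · filter_upwards [jac_mid T nb.N1 t0 hij] with u hu _
        exact hu
  obtain ⟨r1, hr1, hb⟩ := Box_ev key
  have hsub : Box (t0 : ℂ) (min r0 r1) ⊆ Box t0 r0 := Box_mono (by rw [dist_self]; simp)
  have hsub' : Box (t0 : ℂ) (min r0 r1) ⊆ Box t0 r1 := Box_mono (by rw [dist_self]; simp)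
  refine ⟨min r0 r1, R, R', lt_min nb.pos hr1, min_le_left _ _, hR, fun j _ => hR'0 j,
    nb.mono (lt_min nb.pos hr1) hsub, st.mono hsub, hR1, fun j hj => hR'1 j hj, ?_, ?_⟩
  · intro u hu j hj
    exact (hb u (hsub' hu)).1 j (Finset.mem_range.2 hj)
  · intro u hu h0
    refine ⟨fun i hi j hj hij => (hb u (hsub' hu)).2 i (Finset.mem_range.2 hi) j
      (Finset.mem_range.2 hj) hij h0, jac_base T nb.N1 (nb.mem u (hsub hu) 0 (Nat.zero_le _)) h0⟩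

theorem real_punct (t0 : ℝ) : Tendsto (fun x : ℝ => (x : ℂ)) (𝓝[≠] t0) (𝓝[≠] (t0 : ℂ)) := by
  refine tendsto_nhdsWithin_of_tendsto_nhds_of_eventually_within _ ?_ ?_
  · exact (Complex.continuous_ofReal.tendsto t0).mono_left nhdsWithin_le_nhds
  · filter_upwards [self_mem_nhdsWithin] with x hx
    intro h
    exact hx (by simpa using h)

theorem ev_punct {f g : ℂ → ℂ} {t0 : ℝ} (hf : AnalyticAt ℂ f (g t0))
    (h0 : ¬ ∀ᶠ z in 𝓝 (g t0), f z = 0) {c : ℂ} (hg : HasDerivAt g c t0) (hc : c ≠ 0) :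
    ∀ᶠ x : ℝ in 𝓝[≠] t0, f (g x) ≠ 0 := by
  rcases hf.eventually_eq_zero_or_eventually_ne_zero with h | h
  · exact absurd h h0
  · exact (real_punct t0).eventually ((hg.tendsto_nhdsNE hc).eventually h)

/-- **moving the centre** of the box: finitely many analytic functions, not identically zero near
the vertices over `(t0, 0)`, do not vanish at the vertices over `(t1, 0)` -/
theorem move (T : Ctx κ Λ H Φ r e α p J) {N n : ℕ} {t0 : ℝ} {r0 : ℝ} {M : ℕ → ℂ → ℂ}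
    {a q : ℕ → ℂ × ℂ → ℂ} (nb : NBox H r e α p N n t0 r0)
    (st : Star κ H α p N n (Box t0 r0) M a q) {D0 : ℂ → ℂ} (hD0 : AnalyticAt ℂ D0 (α t0 0))
    (hD0' : ¬ ∀ᶠ z in 𝓝 (α t0 0), D0 z = 0) {D : ℕ → ℂ → ℂ}
    (hD : ∀ j < n, AnalyticAt ℂ (D j) (mid (a j) (a (j + 1)) ((t0 : ℂ), 0)))
    (hD' : ∀ j < n, ¬ ∀ᶠ z in 𝓝 (mid (a j) (a (j + 1)) ((t0 : ℂ), 0)), D j z = 0)
    {δ : ℝ} (hδ : 0 < δ) :
    ∃ t1 : ℝ, |t1 - t0| < δ ∧ D0 (α t1 0) ≠ 0 ∧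
      (∀ j < n, D j (mid (a j) (a (j + 1)) ((t1 : ℂ), 0)) ≠ 0) ∧
      ∃ r1 > 0, Box (t1 : ℂ) r1 ⊆ Box t0 r0 ∧ NBox H r e α p N n t1 r1 ∧
        Star κ H α p N n (Box t1 r1) M a q := by
  have hu0 : ((t0 : ℂ), (0 : ℂ)) ∈ Box t0 r0 := mem_Box0 nb.pos
  obtain ⟨c, hc, hd⟩ := deriv_α T t0
  have h1 : ∀ᶠ x : ℝ in 𝓝[≠] t0, D0 (α x 0) ≠ 0 :=
    ev_punct (g := fun x => α x 0) hD0 hD0' hd hc
  have h2 : ∀ᶠ x : ℝ in 𝓝[≠] t0, ∀ j ∈ Finset.range n,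
      D j (mid (a j) (a (j + 1)) ((x : ℂ), 0)) ≠ 0 := by
    rw [Filter.eventually_all_finset]
    intro j hj
    have hj' := Finset.mem_range.1 hj
    have h3 := fderiv_10 (mid_cont st.sw.toWord hj' hu0)
    have h4 := st.sw.vt j hj' _ hu0
    have h5 : deriv (fun x => mid (a j) (a (j + 1)) (x, (0 : ℂ))) (t0 : ℂ) ≠ 0 := h4
    rw [h3.deriv] at h5
    exact ev_punct (g := fun x => mid (a j) (a (j + 1)) (x, (0 : ℂ))) (hD j hj') (hD' j hj') h3 h5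
  have h6 : ∀ᶠ x : ℝ in 𝓝[≠] t0, |x - t0| < min δ (r0 / 2) := by
    have : ∀ᶠ x : ℝ in 𝓝 t0, |x - t0| < min δ (r0 / 2) := by
      have := Metric.ball_mem_nhds t0 (lt_min hδ (half_pos nb.pos))
      filter_upwards [this] with x hx
      rwa [mem_ball, Real.dist_eq] at hx
    exact this.filter_mono nhdsWithin_le_nhds
  obtain ⟨t1, g1, g2, g3⟩ := (h1.and (h2.and h6)).exists
  have hs : Box (t1 : ℂ) (r0 / 2) ⊆ Box t0 r0 := by
    apply Box_mono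
    have : dist (t1 : ℂ) (t0 : ℂ) = |t1 - t0| := by
      rw [dist_eq_norm, ← ofReal_sub, Complex.norm_real, Real.norm_eq_abs]
    rw [this]
    have := (lt_min_iff.1 g3).2
    linarith
  exact ⟨t1, (lt_min_iff.1 g3).1, g1, fun j hj => g2 j (Finset.mem_range.2 hj), r0 / 2,
    half_pos nb.pos, hs, nb.mono (half_pos nb.pos) hs, st.mono hs⟩

end Vale.Agent.P097.H456.Fct
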