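import Vale.Agent.P097.H650.RR3
import Vale.Agent.P097.H288.F2c
import Vale.Agent.P097.H82.F3
import Vale.Agent.P097.H367.FR.F4
import Vale.Agent.P097.H365.F5.Lit
import Vale.Agent.P097.H845.F5b

/-!
# P097: the finite chain theorem FCT, assembled

`fct : FCT` (literal statement in `Fct/Defs.lean`): for a non algebraic table, if the two outer lines
of a natural word extend analytically to a periodic domain `Ω`, then every inner line (its
`exp (I α)` and its support number) is a quotient of periodic analytic functions on `Ω`.
Rows: F2b (650), F2c (288), F3 (82), F4 (367), F5a (365), F5b (845).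
-/

namespace Vale.Agent.P097.H456.Fct

/-- F2, from the two halves of 650 and 288. -/
theorem f2 : F2 := F2_of Vale.Agent.P097.H650.f2b Vale.Agent.P097.H288.f2c

/-- **FCT**, the finite chain theorem. -/
theorem fct : FCT :=
  fct_of f2 Vale.Agent.P097.H82.f3 Vale.Agent.P097.H367.FR.f4
    Vale.Agent.P097.H365.F5.f5aLit Vale.Agent.P097.H845.f5b

end Vale.Agent.P097.H456.Fct
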